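import Vale.Agent.P069.Main

namespace Vale.Agent.Results.P069.Counterexample

variable {X : Type} [NormedAddCommGroup X] [NormedSpace ℝ X]

/-- `cof(X)`: closed subspaces of finite codimension. -/
def Cof (X : Type) [NormedAddCommGroup X] [NormedSpace ℝ X] : Set (Submodule ℝ X) :=
  {F | IsClosed (F : Set X) ∧ FiniteDimensional ℝ (X ⧸ F)}

/-- `N` is a norm on `X` equivalent to the given one. -/
def IsEquivNorm (N : Seminorm ℝ X) : Prop :=
  ∃ a b : ℝ, 0 < a ∧ 0 < b ∧ ∀ x : X, a * ‖x‖ ≤ N x ∧ N x ≤ b * ‖x‖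

/-- The modulus of asymptotic uniform convexity. -/
noncomputable def aucModulus (N : Seminorm ℝ X) (t : ℝ) : EReal :=
  ⨅ x ∈ {x : X | N x = 1}, ⨆ F ∈ Cof X, ⨅ y ∈ {y : X | y ∈ F ∧ N y = 1},
    ((N (x + t • y) - 1 : ℝ) : EReal)

/-- The modulus of asymptotic midpoint uniform convexity. -/
noncomputable def amucModulus (N : Seminorm ℝ X) (t : ℝ) : EReal :=
  ⨅ x ∈ {x : X | N x = 1}, ⨆ F ∈ Cof X, ⨅ y ∈ {y : X | y ∈ F ∧ N y = 1},
    ((max (N (x + t • y)) (N (x - t • y)) - 1 : ℝ) : EReal)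

def IsAUC (N : Seminorm ℝ X) : Prop := ∀ t : ℝ, 0 < t → 0 < aucModulus N t

def IsAMUC (N : Seminorm ℝ X) : Prop := ∀ t : ℝ, 0 < t → 0 < amucModulus N t

theorem result : ∃ (X : Type) (_ : NormedAddCommGroup X) (_ : NormedSpace ℝ X),
    CompleteSpace X ∧ ¬ FiniteDimensional ℝ X ∧
    Function.Surjective (NormedSpace.inclusionInDoubleDual ℝ X) ∧
    (∃ N : Seminorm ℝ X, IsEquivNorm N ∧ IsAMUC N) ∧
    ¬ ∃ N : Seminorm ℝ X, IsEquivNorm N ∧ IsAUC N := by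
  refine ⟨Vale.Agent.P069.X, inferInstance, inferInstance, inferInstance, fun hfin => ?_,
    Vale.Agent.P069.reflexive, ⟨normSeminorm ℝ _, ⟨1, 1, one_pos, one_pos, by simp⟩, fun t ht => ?_⟩,
    fun ⟨N, ⟨a, b, ha, _, h⟩, hN⟩ => ?_⟩
  · refine Vale.Agent.P069.not_auc (normSeminorm ℝ _) (a := 1) (b := 1) one_pos (by simp) (by simp)
      fun t _ => ⟨1, one_pos, fun x _ => ⟨⊥, isClosed_singleton, inferInstance, fun y hy k => ?_⟩⟩
    rw [(Submodule.mem_bot ℝ).mp hy] at k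
    simp at k
  · obtain ⟨δ, δ0, hδ⟩ := Vale.Agent.P069.amuc ht
    refine lt_of_lt_of_le (EReal.coe_pos.mpr δ0) (le_iInf₂ fun x hx => ?_)
    obtain ⟨F, F1, F2, F3⟩ := hδ x hx
    exact le_iSup₂_of_le F ⟨F1, F2⟩ (le_iInf₂ fun y hy => EReal.coe_le_coe_iff.mpr (F3 y hy.1 hy.2))
  · refine Vale.Agent.P069.not_auc N ha (fun x => (h x).1) (fun x => (h x).2) fun t ht => ?_
    obtain ⟨δ, δ0, hδ⟩ := EReal.lt_iff_exists_real_btwn.mp (hN t ht)
    refine ⟨δ, EReal.coe_pos.mp δ0, fun x hx => ?_⟩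
    have h1 := hδ.trans_le (iInf₂_le x hx)
    simp only [lt_iSup_iff] at h1
    obtain ⟨F, hF, h2⟩ := h1
    exact ⟨F, hF.1, hF.2, fun y hy k =>
      EReal.coe_le_coe_iff.mp (h2.trans_le (iInf₂_le y ⟨hy, k⟩)).le⟩

end Vale.Agent.Results.P069.Counterexample
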